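import Vale.Agent.Lib.P333.Six

namespace Vale.Agent.Results.P333.GreedySix

open Vale.Agent.Lib.P333

/-- The greedy superstring conjecture (factor two) for every family of at most six strings,
over an arbitrary alphabet and for every way of breaking ties. -/
theorem result {α : Type*} [DecidableEq α] (S : Finset (List α)) (hS : S.card ≤ 6) :
    (S.Nonempty → ∃ T : List α, GreedyOutput S T) ∧
    ∀ T : List α, GreedyOutput S T →
      IsCommonSuperstring S T ∧
        ∀ U : List α, IsCommonSuperstring S U → T.length ≤ 2 * U.length :=
  ⟨exists_greedyOutput S, fun T hT =>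
    ⟨greedy_isCommonSuperstring S T hT, fun U hU => greedy_six S hS T hT U hU⟩⟩

end Vale.Agent.Results.P333.GreedySix
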